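import Vale.Agent.Lib.P034Univ.Main

namespace Vale.Agent.Results.P034.ATalagrandConstant

open Vale.Agent.Lib.P034Univ

/-- **Talagrand's conjecture** on the fractional and the integral expectation thresholds: there is a
universal constant `K` (here `K = 2 ^ 320`) with the following two properties, for every finite set
`X` and every family `F` of subsets of `X` (families are predicates on `Finset X`).

(1) If `g ≥ 0` is a fractional cover of `F` with cost at most `1/2` at `p ∈ (0, 1]`, then `F` has a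
cover `G` with cost at most `1/2` at `p / K`.

(2) `q_f(F) ≤ K * q(F)`: whenever `qf` is the largest `p ∈ [0, 1]` such that `F` has a fractional cover
`g : 2^X → [0, 1]` of cost at most `1/2` at `p`, and `q` is the largest `p ∈ [0, 1]` such that `F` has a
cover of cost at most `1/2` at `p`, then `qf ≤ K * q`. -/
theorem result : ∃ K : ℝ, 1 ≤ K ∧
    ∀ (X : Type) [Fintype X] [DecidableEq X] (F : Finset X → Prop),
      (∀ (g : Finset X → ℝ) (p : ℝ), (∀ S, 0 ≤ g S) → 0 < p → p ≤ 1 →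
        (∀ H, F H → 1 ≤ ∑ S ∈ H.powerset, g S) →
        ∑ S : Finset X, g S * p ^ S.card ≤ 1 / 2 →
        ∃ G : Finset (Finset X), (∀ H, F H → ∃ S ∈ G, S ⊆ H) ∧
          ∑ S ∈ G, (p / K) ^ S.card ≤ 1 / 2) ∧
      (∀ qf q : ℝ,
        IsGreatest {p : ℝ | 0 ≤ p ∧ p ≤ 1 ∧ ∃ g : Finset X → ℝ, (∀ S, 0 ≤ g S ∧ g S ≤ 1) ∧
          (∀ H, F H → 1 ≤ ∑ S ∈ H.powerset, g S) ∧ ∑ S : Finset X, g S * p ^ S.card ≤ 1 / 2} qf →
        IsGreatest {p : ℝ | 0 ≤ p ∧ p ≤ 1 ∧ ∃ G : Finset (Finset X),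
          (∀ H, F H → ∃ S ∈ G, S ⊆ H) ∧ ∑ S ∈ G, p ^ S.card ≤ 1 / 2} q →
        qf ≤ K * q) := by
  have hK1 : (1 : ℝ) ≤ 2 ^ 320 := one_le_pow₀ (by norm_num)
  have hK0 : (0 : ℝ) < 2 ^ 320 := by positivity
  refine ⟨2 ^ 320, hK1, ?_⟩
  intro X _ _ F
  refine ⟨fun g p hg0 hp0 hp1 hcover hw => fractional_to_integral F g p hg0 hp0 hp1 hcover hw, ?_⟩
  intro qf q hqf hq
  obtain ⟨⟨h0, h1, g, hg, hcover, hw⟩, _⟩ := hqf
  obtain ⟨⟨h2, _, _⟩, hqmax⟩ := hq
  rcases h0.eq_or_lt with h | hpos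
  · rw [← h]
    exact mul_nonneg hK0.le h2
  · obtain ⟨G, hG1, hG2⟩ := fractional_to_integral F g qf (fun S => (hg S).1) hpos h1 hcover hw
    have h3 : qf / 2 ^ 320 ≤ q := by
      apply hqmax
      refine ⟨by positivity, ?_, G, hG1, hG2⟩
      rw [div_le_one hK0]
      exact h1.trans hK1
    rw [div_le_iff₀ hK0] at h3
    linarith

end Vale.Agent.Results.P034.ATalagrandConstant
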