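import Vale.Agent.Lib.P034.Avg

namespace Vale.Agent.Results.P034.InvariantForestCovers

open Vale.Agent.Lib.P034 Vale.Agent.Lib.P064
open scoped Classical

/-- Talagrand's comparison for invariant fractional covers supported on forests. Here the ground
set is the edge set of the complete graph on `n` vertices, so subsets are graphs on `Fin n`. There
is a universal constant `K` such that: if `g` is a nonnegative function on graphs on `Fin n`, positive only
on forests and constant on isomorphism classes, every member `H` of a family `𝓕` satisfies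
`∑_{S ≤ H} g S ≥ 1`, and `∑_S g S p^{|S|} ≤ 1/2`, then `𝓕` has a cover `𝓖` (every member of `𝓕`
contains a member of `𝓖`) of cost at most `1/2` at `p / K`. -/
theorem result : ∃ K : ℝ, 0 < K ∧ ∀ (n : ℕ) (p : ℝ) (g : SimpleGraph (Fin n) → ℝ)
    (𝓕 : Set (SimpleGraph (Fin n))),
    1 ≤ n → 0 < p → p ≤ 1 →
    (∀ S, 0 ≤ g S) →
    (∀ S, g S ≠ 0 → S.IsAcyclic) →
    (∀ S T, Nonempty (S ≃g T) → g S = g T) →
    (∀ H ∈ 𝓕, 1 ≤ ∑ S ∈ Finset.univ.filter (fun S => S ≤ H), g S) →
    ∑ S, g S * p ^ numEdges S ≤ 1 / 2 →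
    ∃ 𝓖 : Finset (SimpleGraph (Fin n)), (∀ H ∈ 𝓕, ∃ S ∈ 𝓖, S ≤ H) ∧
      ∑ S ∈ 𝓖, (p / K) ^ numEdges S ≤ 1 / 2 := by
  refine ⟨8 * constL', ?_, ?_⟩
  · have hL : 0 < constL' := by
      unfold constL'
      linarith [constK_pos]
    positivity
  · intro n p g 𝓕 hn hp hp1 hg0 hgf hginv hF hcost
    exact cover_of_invariant_forest_weights (by omega) hp hp1 hg0 hgf hginv hF hcost

end Vale.Agent.Results.P034.InvariantForestCovers
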