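import Vale.Agent.Lib.P034.Reduction

namespace Vale.Agent.Results.P034.LargeSetRounding

open Finset
open Vale.Agent.Lib.P034.LargeSet

/-- Rounding the large sets of a fractional cover.  Let `F` be an increasing family on the finite
set `X`, such that each member contains a member of size at most `l`, and let `g ≥ 0` be a
fractional cover of `F` with cost at most `1/2` at `p`.  Let `t ≥ 1` and `K ≥ 4` with
`8 * l ≤ (K / 2) ^ t`.

* If `g` is positive only on sets of size at least `t`, then `F` has a cover of cost at most `1/2`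
  at `p / K`.
* In general there is `G` of cost at most `1/2` at `p / (2 * K)` such that each member of `F`
  contains a member of `G` or has at least half of its `g`-mass on sets of size below `t`.
* If `L > 0` is a rounding constant on `X` for fractional covers positive only on sets of size
  below `t`, then `F` has a cover of cost at most `1/2` at `p / (4 * max K L)`. -/
theorem result {X : Type*} [Fintype X] [DecidableEq X]
    (F : Finset X → Prop) (hup : ∀ A B, A ⊆ B → F A → F B)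
    (l : ℕ) (hl : ∀ A, F A → ∃ B, B ⊆ A ∧ F B ∧ B.card ≤ l)
    (g : Finset X → ℝ) (hg0 : ∀ S, 0 ≤ g S)
    (hcover : ∀ H, F H → 1 ≤ ∑ S ∈ H.powerset, g S)
    (p : ℝ) (hp0 : 0 ≤ p) (hp1 : p ≤ 1) (hw : ∑ S, g S * p ^ S.card ≤ 1 / 2)
    (t : ℕ) (ht : 1 ≤ t) (K : ℝ) (hK : 4 ≤ K) (hKt : 8 * (l : ℝ) ≤ (K / 2) ^ t) :
    ((∀ S, g S ≠ 0 → t ≤ S.card) →
      ∃ G : Finset (Finset X), (∀ H, F H → ∃ S ∈ G, S ⊆ H) ∧
        ∑ S ∈ G, (p / K) ^ S.card ≤ 1 / 2) ∧
    (∃ G : Finset (Finset X),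
      (∀ H, F H → (∃ S ∈ G, S ⊆ H) ∨ 1 / 2 ≤ ∑ S ∈ H.powerset with S.card < t, g S) ∧
      ∑ S ∈ G, (p / (2 * K)) ^ S.card ≤ 1 / 2) ∧
    (∀ L : ℝ, 0 < L →
      (∀ (F₂ : Finset X → Prop) (g₂ : Finset X → ℝ) (p₂ : ℝ),
        (∀ A B, A ⊆ B → F₂ A → F₂ B) → (∀ S, 0 ≤ g₂ S) →
        (∀ H, F₂ H → 1 ≤ ∑ S ∈ H.powerset, g₂ S) → (∀ S, g₂ S ≠ 0 → S.card < t) →
        0 ≤ p₂ → p₂ ≤ 1 → ∑ S, g₂ S * p₂ ^ S.card ≤ 1 / 2 →
        ∃ G : Finset (Finset X), (∀ H, F₂ H → ∃ S ∈ G, S ⊆ H) ∧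
          ∑ S ∈ G, (p₂ / L) ^ S.card ≤ 1 / 2) →
      ∃ G : Finset (Finset X), (∀ H, F H → ∃ S ∈ G, S ⊆ H) ∧
        ∑ S ∈ G, (p / (4 * max K L)) ^ S.card ≤ 1 / 2) :=
  ⟨fun hsupp => large_support_cover F hup l hl g hg0 hcover p hp0 hp1 hw t ht hsupp K hK hKt,
    split_large F l hl g hg0 hcover p hp0 hp1 hw t ht K hK hKt,
    fun L hL hround => combine F l hl g hg0 hcover p hp0 hp1 hw t ht K hK hKt L hL hround⟩

end Vale.Agent.Results.P034.LargeSetRounding
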