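import Vale.Agent.Lib.P034LogStar.Main

namespace Vale.Agent.Results.P034.LogStarBound

open Vale.Agent.Lib.P034LogStar

/-- There is an absolute constant `C` such that the following holds.  Let `F` be a family of subsets
of a finite set `X` in which every member contains a member of size at most `l` (so `l` may be the
largest size of a minimal member of `F`, and `l ≤ |X|` always works).  If `g ≥ 0` is a fractional
cover of `F` with cost at most `1/2` at `p`, then `F` has a cover `G` with cost at most `1/2` at
`p / (C * (1 + log* l))`.  In other words `q_f(F) ≤ C * (1 + log* l) * q(F)`. -/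
theorem result : ∃ C : ℝ, 0 < C ∧
    ∀ (X : Type) [Fintype X] [DecidableEq X] (F : Finset X → Prop) (l : ℕ),
      (∀ H, F H → ∃ H', F H' ∧ H' ⊆ H ∧ H'.card ≤ l) →
      ∀ (g : Finset X → ℝ) (p : ℝ), (∀ S, 0 ≤ g S) → 0 < p →
        (∀ H, F H → 1 ≤ ∑ S ∈ H.powerset, g S) →
        ∑ S : Finset X, g S * p ^ S.card ≤ 1 / 2 →
        ∃ G : Finset (Finset X), (∀ H, F H → ∃ S ∈ G, S ⊆ H) ∧
          ∑ S ∈ G, (p / (C * (1 + (logStar l : ℝ)))) ^ S.card ≤ 1 / 2 :=
  logStar_bound

end Vale.Agent.Results.P034.LogStarBound
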